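import Vale.Agent.FUSF.Factor
import Vale.Agent.FUSF.Cayley

/-!
Problem P143, full positive answer: the free uniform spanning forest is a factor of iid on every
Cayley graph, and a graph factor of iid on every unimodular random graph (in fact one universal
equivariant Borel map works for all infinite connected locally finite graphs).

Idea: by Kirchhoff's formula the edge probabilities of weighted spanning trees are infima over
flows, so they are Lipschitz functions of the logarithms of the conductances in the supremum norm,
with a constant which does not depend on the graph. Noisy observations of the edges of the forest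
are produced by a parallel scheme with small steps, which is close to an exact sequential scheme
on finite graphs; the observations determine the forest.
-/

open MeasureTheory Vale.Agent.FUSF
open scoped unitInterval

namespace Vale.Agent.Results.P143.FusfFactorOfIid

universe u

theorem isGroupFactor {Γ : Type u} [Group Γ] {S : Set Γ} (hS : S.Finite)
    (hgen : Subgroup.closure S = ⊤) {μ : Measure (Set (Sym2 Γ))} (hμ : IsFUSF (cayley S) μ) :
    IsGroupFactor μ := by
  have : Countable Γ := countable_of_closure hS hgen
  have h1 := isFUSF_map_Phi (cayley_connected hgen) (cayley_finite hS)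
  have h2 : Measurable fun U : Γ → I => ((cayley S, U) : SimpleGraph Γ × (Γ → I)) :=
    measurable_const.prodMk measurable_id
  refine ⟨Phi (cayley S), measurable_Phi.comp h2, ?_, h1.unique hμ⟩
  intro γ U
  have h3 := Phi_map (cayley S) U (Equiv.mulLeft γ)
  rw [cayley_map] at h3
  exact h3

/-- The free uniform spanning forest is a factor of iid: on every Cayley graph of every finitely
generated group; and by one equivariant Borel map for all infinite connected locally finite
graphs, in particular for every unimodular random graph. -/
theorem result :
    (∀ (Γ : Type u) [Group Γ] (S : Set Γ), S.Finite → Subgroup.closure S = ⊤ →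
      (∃ μ, IsFUSF (cayley S) μ) ∧ ∀ μ, IsFUSF (cayley S) μ → IsGroupFactor μ) ∧
    (∃ Φ : SimpleGraph ℕ → (ℕ → I) → Set (Sym2 ℕ), IsGraphFactorMap Φ ∧
      (∀ G, IsGood G → IsFUSF G ((iidUnif ℕ).map (Φ G))) ∧
      ∀ P, IsUnimodular P → ∀ᵐ p ∂P, IsFUSF p.1 ((iidUnif ℕ).map (Φ p.1))) := by
  refine ⟨?_, Phi, ⟨measurable_Phi, fun τ G U => Phi_map G U τ⟩, ?_, ?_⟩
  · intro Γ _ S hS hgen
    have : Countable Γ := countable_of_closure hS hgen
    exact ⟨⟨_, isFUSF_map_Phi (cayley_connected hgen) (cayley_finite hS)⟩,
      fun μ hμ => isGroupFactor hS hgen hμ⟩
  · intro G hG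
    exact isFUSF_map_Phi hG.1 hG.2
  · intro P hP
    filter_upwards [hP.good] with p hp
    exact isFUSF_map_Phi hp.1 hp.2

end Vale.Agent.Results.P143.FusfFactorOfIid
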